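import Crest.Agent.R193.Defs

/-!
# R193/P/Calc: calculus in the plane (directional derivatives, scaling, Lebesgue points)
-/

set_option autoImplicit false
open Set Metric Filter Topology MeasureTheory

namespace Crest.Agent.R193.PB

/-- smooth with compact support -/
def Sm (f : ℂ → ℝ) : Prop := ContDiff ℝ (⊤ : ℕ∞) f ∧ HasCompactSupport f

/-- directional derivative -/
noncomputable def Dv (u : ℂ) (f : ℂ → ℝ) (z : ℂ) : ℝ := fderiv ℝ f z u

/-- the operator `∂ᵤ² + ∂ᵥ²` -/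
noncomputable def L2 (u v : ℂ) (f : ℂ → ℝ) (z : ℂ) : ℝ := Dv u (Dv u f) z + Dv v (Dv v f) z

/-- energy density -/
noncomputable def nr (f : ℂ → ℝ) (z : ℂ) : ℝ := dx f z ^ 2 + dy f z ^ 2

/-- the bilinear integrand -/
noncomputable def q0 (α β γ : ℝ) (f h : ℂ → ℝ) (z : ℂ) : ℝ :=
  α * (dx f z * dx h z) + β * (dx f z * dy h z + dy f z * dx h z) + γ * (dy f z * dy h z)

/-- rescaling -/
noncomputable def rs (z₁ : ℂ) (l : ℝ) (f : ℂ → ℝ) (z : ℂ) : ℝ := f ((z - z₁) / (l : ℂ))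

theorem dx_eq (f : ℂ → ℝ) : dx f = Dv 1 f := rfl
theorem dy_eq (f : ℂ → ℝ) : dy f = Dv Complex.I f := rfl
theorem dir_eq (f : ℂ → ℝ) : dir f = ∫ z, nr f z := rfl
theorem nr_nonneg (f : ℂ → ℝ) (z : ℂ) : 0 ≤ nr f z := by unfold nr; positivity
theorem dir_nonneg (f : ℂ → ℝ) : 0 ≤ dir f := integral_nonneg (nr_nonneg f)

theorem contDiff_Dv {f : ℂ → ℝ} (hf : ContDiff ℝ (⊤ : ℕ∞) f) (u : ℂ) :
    ContDiff ℝ (⊤ : ℕ∞) (Dv u f) :=
  (hf.fderiv_right (m := (⊤ : ℕ∞)) le_rfl).clm_apply contDiff_const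

theorem diff_of {f : ℂ → ℝ} (hf : ContDiff ℝ (⊤ : ℕ∞) f) : Differentiable ℝ f :=
  hf.differentiable (by simp)

theorem Sm.dv {f : ℂ → ℝ} (hf : Sm f) (u : ℂ) : Sm (Dv u f) :=
  ⟨contDiff_Dv hf.1 u, hf.2.fderiv_apply ℝ u⟩

theorem Sm.cont {f : ℂ → ℝ} (hf : Sm f) : Continuous f := hf.1.continuous

theorem Sm.add {f g : ℂ → ℝ} (hf : Sm f) (hg : Sm g) : Sm (fun z => f z + g z) :=
  ⟨hf.1.add hg.1, hf.2.add hg.2⟩

theorem Sm.mul {f g : ℂ → ℝ} (hf : ContDiff ℝ (⊤ : ℕ∞) f) (hg : Sm g) : Sm (fun z => f z * g z) :=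
  ⟨hf.mul hg.1, hg.2.mul_left⟩

theorem Sm.l2 {f : ℂ → ℝ} (hf : Sm f) (u v : ℂ) : Sm (L2 u v f) :=
  ((hf.dv u).dv u).add ((hf.dv v).dv v)

theorem Sm.int {f : ℂ → ℝ} (hf : Sm f) : Integrable f :=
  hf.cont.integrable_of_hasCompactSupport hf.2

theorem Sm.sq {f : ℂ → ℝ} (hf : Sm f) : Sm (fun z => f z ^ 2) := by
  simpa only [_root_.sq] using Sm.mul hf.1 hf

theorem Sm.nr {f : ℂ → ℝ} (hf : Sm f) : Sm (nr f) := (hf.dv 1).sq.add (hf.dv Complex.I).sq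

theorem Sm.q0 {f h : ℂ → ℝ} (hf : Sm f) (hh : Sm h) (α β γ : ℝ) : Sm (q0 α β γ f h) :=
  ((Sm.mul contDiff_const (Sm.mul (hf.dv 1).1 (hh.dv 1))).add
    (Sm.mul contDiff_const ((Sm.mul (hf.dv 1).1 (hh.dv Complex.I)).add
      (Sm.mul (hf.dv Complex.I).1 (hh.dv 1))))).add
    (Sm.mul contDiff_const (Sm.mul (hf.dv Complex.I).1 (hh.dv Complex.I)))

theorem Tst.sm {Ω : Set ℂ} {f : ℂ → ℝ} (h : Tst Ω f) : Sm f := ⟨h.1, h.2.1⟩

theorem Dv_congr {f h : ℂ → ℝ} {z : ℂ} (e : f =ᶠ[𝓝 z] h) (u : ℂ) : Dv u f =ᶠ[𝓝 z] Dv u h := by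
  filter_upwards [e.fderiv (𝕜 := ℝ)] with y hy
  simp only [Dv, hy]

theorem L2_congr {f h : ℂ → ℝ} {z : ℂ} (e : f =ᶠ[𝓝 z] h) (u v : ℂ) : L2 u v f z = L2 u v h z := by
  unfold L2
  rw [(Dv_congr (Dv_congr e u) u).self_of_nhds, (Dv_congr (Dv_congr e v) v).self_of_nhds]

theorem Dv_const (u : ℂ) (c : ℝ) : Dv u (fun _ => c) = fun _ => 0 := by
  funext z; simp [Dv]

theorem L2_of_notMem {f : ℂ → ℝ} {z : ℂ} (h : z ∉ tsupport f) (u v : ℂ) : L2 u v f z = 0 := by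
  rw [L2_congr (notMem_tsupport_iff_eventuallyEq.1 h)]
  have : (0 : ℂ → ℝ) = fun _ => 0 := rfl
  simp only [L2, this, Dv_const, add_zero]

theorem Dv_eq (u : ℂ) (f : ℂ → ℝ) (z : ℂ) : Dv u f z = u.re * dx f z + u.im * dy f z := by
  have : u = u.re • (1 : ℂ) + u.im • Complex.I := by
    apply Complex.ext <;> simp
  unfold Dv dx dy
  conv_lhs => rw [this]
  rw [map_add, map_smul, map_smul, smul_eq_mul, smul_eq_mul]

theorem ibp {f χ : ℂ → ℝ} (hf : Sm f) (hχ : Sm χ) (u : ℂ) :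
    ∫ z, Dv u f z * Dv u χ z = -∫ z, f z * Dv u (Dv u χ) z := by
  have h := integral_mul_fderiv_eq_neg_fderiv_mul_of_integrable (μ := volume) (f := f)
    (g := Dv u χ) (v := u) (Sm.mul (hf.dv u).1 (hχ.dv u)).int
    (Sm.mul hf.1 ((hχ.dv u).dv u)).int (Sm.mul hf.1 (hχ.dv u)).int
    (fun x _ => diff_of hf.1 x) (fun x _ => diff_of (hχ.dv u).1 x)
  change ∫ z, f z * Dv u (Dv u χ) z = -∫ z, Dv u f z * Dv u χ z at h
  rw [h, neg_neg]

/-- `(α, β, γ)` is the matrix `u uᵀ + v vᵀ` -/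
def Rel (u v : ℂ) (α β γ : ℝ) : Prop :=
  α = u.re ^ 2 + v.re ^ 2 ∧ β = u.re * u.im + v.re * v.im ∧ γ = u.im ^ 2 + v.im ^ 2

theorem ibp_L2 {f χ : ℂ → ℝ} (hf : Sm f) (hχ : Sm χ) {u v : ℂ} {α β γ : ℝ} (h : Rel u v α β γ) :
    ∫ z, q0 α β γ f χ z = -∫ z, f z * L2 u v χ z := by
  obtain ⟨rfl, rfl, rfl⟩ := h
  have h1 : ∀ z, q0 (u.re ^ 2 + v.re ^ 2) (u.re * u.im + v.re * v.im) (u.im ^ 2 + v.im ^ 2) f χ z =
      Dv u f z * Dv u χ z + Dv v f z * Dv v χ z := by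
    intro z
    simp only [Dv_eq u, Dv_eq v, q0]; ring
  simp_rw [h1, L2, mul_add]
  rw [integral_add (Sm.mul (hf.dv u).1 (hχ.dv u)).int (Sm.mul (hf.dv v).1 (hχ.dv v)).int,
    integral_add (Sm.mul hf.1 ((hχ.dv u).dv u)).int (Sm.mul hf.1 ((hχ.dv v).dv v)).int,
    ibp hf hχ, ibp hf hχ]
  ring

theorem rel_one : Rel 1 Complex.I 1 0 1 := by simp [Rel]

theorem q0_sub_le (α β γ α' β' γ' e : ℝ) (f h : ℂ → ℝ) (z : ℂ) (h1 : |α - α'| ≤ e)
    (h2 : |β - β'| ≤ e) (h3 : |γ - γ'| ≤ e) {t : ℝ} (ht : 0 < t) :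
    |q0 α β γ f h z - q0 α' β' γ' f h z| ≤ t * nr f z + e ^ 2 * nr h z / t := by
  have he : 0 ≤ e := (abs_nonneg _).trans h1
  set a := dx f z; set b := dy f z; set c := dx h z; set d := dy h z
  have e1 : q0 α β γ f h z - q0 α' β' γ' f h z =
      (α - α') * (a * c) + (β - β') * (a * d) + (β - β') * (b * c) + (γ - γ') * (b * d) := by
    simp only [q0, a, b, c, d]; ring
  have k : ∀ x y w : ℝ, |x| ≤ e → |x * (y * w)| ≤ e * (|y| * |w|) := fun x y w hx => by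
    rw [abs_mul, abs_mul]; exact mul_le_mul_of_nonneg_right hx (by positivity)
  have e2 : |q0 α β γ f h z - q0 α' β' γ' f h z| ≤ (|a| + |b|) * (e * (|c| + |d|)) := by
    rw [e1]
    have := abs_add_le ((α - α') * (a * c) + (β - β') * (a * d) + (β - β') * (b * c))
      ((γ - γ') * (b * d))
    have := abs_add_le ((α - α') * (a * c) + (β - β') * (a * d)) ((β - β') * (b * c))
    have := abs_add_le ((α - α') * (a * c)) ((β - β') * (a * d))
    nlinarith [k _ a c h1, k _ a d h2, k _ b c h2, k _ b d h3]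
  refine e2.trans ?_
  have e3 : (|a| + |b|) ^ 2 ≤ 2 * nr f z := by
    change _ ≤ 2 * (a ^ 2 + b ^ 2)
    nlinarith [sq_abs a, sq_abs b, sq_nonneg (|a| - |b|)]
  have e4 : (|c| + |d|) ^ 2 ≤ 2 * nr h z := by
    change _ ≤ 2 * (c ^ 2 + d ^ 2)
    nlinarith [sq_abs c, sq_abs d, sq_nonneg (|c| - |d|)]
  set x := |a| + |b|; set y := |c| + |d|
  have e5 : x * (e * y) ≤ t / 2 * x ^ 2 + e ^ 2 * y ^ 2 / (2 * t) := by
    have : t / 2 * x ^ 2 + e ^ 2 * y ^ 2 / (2 * t) - x * (e * y) = (t * x - e * y) ^ 2 / (2 * t) := by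
      field_simp; ring
    have h0 : 0 ≤ (t * x - e * y) ^ 2 / (2 * t) := by positivity
    linarith
  have e6 : e ^ 2 * y ^ 2 / (2 * t) ≤ e ^ 2 * nr h z / t := by
    rw [div_le_div_iff₀ (by positivity) ht]
    have := mul_le_mul_of_nonneg_left e4 (mul_nonneg (sq_nonneg e) ht.le)
    nlinarith
  nlinarith

/-! ### scaling -/

theorem int_scale (z₁ : ℂ) {l : ℝ} (hl : 0 < l) (G : ℂ → ℝ) :
    ∫ z, G z = l ^ 2 * ∫ ζ, G (z₁ + l * ζ) := by
  have h := Measure.integral_comp_smul (μ := (volume : Measure ℂ)) (fun z => G (z₁ + z)) l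
  rw [integral_add_left_eq_self G z₁, Complex.finrank_real_complex,
    abs_of_pos (by positivity), smul_eq_mul] at h
  simp only [Complex.real_smul] at h
  rw [h]; field_simp

theorem rs_apply (z₁ : ℂ) {l : ℝ} (hl : 0 < l) (ζ : ℂ) : (z₁ + l * ζ - z₁) / (l : ℂ) = ζ := by
  have : (l : ℂ) ≠ 0 := by exact_mod_cast hl.ne'
  field_simp; ring

theorem rs_inv (z₁ : ℂ) {l : ℝ} (hl : 0 < l) (z : ℂ) : z₁ + l * ((z - z₁) / (l : ℂ)) = z := by
  have : (l : ℂ) ≠ 0 := by exact_mod_cast hl.ne'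
  field_simp; ring

theorem int_rs (z₁ : ℂ) {l : ℝ} (hl : 0 < l) (G : ℂ → ℝ) :
    ∫ z, l⁻¹ ^ 2 * G ((z - z₁) / (l : ℂ)) = ∫ ζ, G ζ := by
  rw [int_scale z₁ hl, integral_const_mul]
  simp only [rs_apply z₁ hl]
  field_simp

theorem contDiff_aff (z₁ : ℂ) (l : ℝ) :
    ContDiff ℝ (⊤ : ℕ∞) (fun z : ℂ => (z - z₁) / (l : ℂ)) :=
  (contDiff_id.sub contDiff_const).div_const _

theorem Dv_rs {f : ℂ → ℝ} (hf : ContDiff ℝ (⊤ : ℕ∞) f) (z₁ : ℂ) (l : ℝ) (u z : ℂ) :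
    Dv u (rs z₁ l f) z = l⁻¹ * Dv u f ((z - z₁) / (l : ℂ)) := by
  have h1 : HasFDerivAt (fun z : ℂ => (z - z₁) / (l : ℂ))
      (l⁻¹ • ContinuousLinearMap.id ℝ ℂ) z := by
    have := ((hasFDerivAt_id (𝕜 := ℝ) z).sub_const z₁).const_smul l⁻¹
    refine this.congr_of_eventuallyEq (Eventually.of_forall fun y => ?_)
    simp [div_eq_inv_mul]
  have h2 := ((diff_of hf) _).hasFDerivAt.comp z h1
  unfold Dv
  change fderiv ℝ (f ∘ fun z : ℂ => (z - z₁) / (l : ℂ)) z u = _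
  rw [h2.fderiv]
  simp only [ContinuousLinearMap.comp_apply, _root_.smul_apply,
    ContinuousLinearMap.id_apply, map_smul, smul_eq_mul]

theorem contDiff_rs {f : ℂ → ℝ} (hf : ContDiff ℝ (⊤ : ℕ∞) f) (z₁ : ℂ) (l : ℝ) :
    ContDiff ℝ (⊤ : ℕ∞) (rs z₁ l f) := hf.comp (contDiff_aff z₁ l)

theorem Dv_const_mul {f : ℂ → ℝ} (hf : ContDiff ℝ (⊤ : ℕ∞) f) (c : ℝ) (u z : ℂ) :
    Dv u (fun z => c * f z) z = c * Dv u f z := by
  unfold Dv
  rw [fderiv_const_mul (diff_of hf z)]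
  simp

theorem L2_rs {f : ℂ → ℝ} (hf : ContDiff ℝ (⊤ : ℕ∞) f) (z₁ : ℂ) (l : ℝ) (u v z : ℂ) :
    L2 u v (rs z₁ l f) z = l⁻¹ ^ 2 * L2 u v f ((z - z₁) / (l : ℂ)) := by
  have h : ∀ u, Dv u (Dv u (rs z₁ l f)) z = l⁻¹ ^ 2 * Dv u (Dv u f) ((z - z₁) / (l : ℂ)) := by
    intro u
    have : Dv u (rs z₁ l f) = fun z => l⁻¹ * rs z₁ l (Dv u f) z := funext (Dv_rs hf z₁ l u)
    rw [this, Dv_const_mul (contDiff_rs (contDiff_Dv hf u) z₁ l), Dv_rs (contDiff_Dv hf u)]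
    ring
  unfold L2
  rw [h, h]; ring

theorem nr_rs {f : ℂ → ℝ} (hf : ContDiff ℝ (⊤ : ℕ∞) f) (z₁ : ℂ) (l : ℝ) (z : ℂ) :
    nr (rs z₁ l f) z = l⁻¹ ^ 2 * nr f ((z - z₁) / (l : ℂ)) := by
  simp only [nr, dx_eq, dy_eq, Dv_rs hf]; ring

theorem q0_rs {f : ℂ → ℝ} (hf : ContDiff ℝ (⊤ : ℕ∞) f) (z₁ : ℂ) (l : ℝ) (α β γ : ℝ) (z : ℂ) :
    q0 α β γ (rs z₁ l f) (rs z₁ l f) z = l⁻¹ ^ 2 * q0 α β γ f f ((z - z₁) / (l : ℂ)) := by
  simp only [q0, dx_eq, dy_eq, Dv_rs hf]; ring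

theorem dir_rs {f : ℂ → ℝ} (hf : ContDiff ℝ (⊤ : ℕ∞) f) (z₁ : ℂ) {l : ℝ} (hl : 0 < l) :
    dir (rs z₁ l f) = dir f := by
  rw [dir_eq, dir_eq]
  simp_rw [nr_rs hf]
  exact int_rs z₁ hl _

theorem tsupport_comp_subset {X Y : Type} [TopologicalSpace X] [TopologicalSpace Y] {f : Y → ℝ}
    {T : X → Y} (hT : Continuous T) : tsupport (fun z => f (T z)) ⊆ T ⁻¹' tsupport f :=
  closure_minimal (fun _ hz => subset_tsupport f hz) ((isClosed_tsupport f).preimage hT)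

theorem tsupport_rs (z₁ : ℂ) (l : ℝ) (f : ℂ → ℝ) :
    tsupport (rs z₁ l f) ⊆ {z | (z - z₁) / (l : ℂ) ∈ tsupport f} :=
  tsupport_comp_subset (contDiff_aff z₁ l).continuous

theorem norm_sub_le_of_div {z z₁ : ℂ} {l R : ℝ} (hl : 0 < l) (h : ‖(z - z₁) / (l : ℂ)‖ ≤ R) :
    ‖z - z₁‖ ≤ R * l := by
  rwa [norm_div, Complex.norm_real, Real.norm_of_nonneg hl.le, div_le_iff₀ hl] at h

/-- small multiples of a bounded set stay in the ball -/
theorem ev_ball {z₀ z₁ : ℂ} {r₀ : ℝ} (h : z₁ ∈ ball z₀ r₀) (R : ℝ) :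
    ∀ᶠ l : ℝ in 𝓝[>] 0, ∀ z : ℂ, ‖(z - z₁) / (l : ℂ)‖ ≤ R → z ∈ ball z₀ r₀ := by
  obtain ⟨ε, hε, hb⟩ := Metric.isOpen_iff.1 isOpen_ball z₁ h
  have ht : Tendsto (fun l : ℝ => R * l) (𝓝[>] 0) (𝓝 0) := by
    have : Tendsto (fun l : ℝ => R * l) (𝓝 0) (𝓝 (R * 0)) := tendsto_id.const_mul R
    rw [mul_zero] at this
    exact this.mono_left nhdsWithin_le_nhds
  filter_upwards [ht.eventually (gt_mem_nhds hε), self_mem_nhdsWithin] with l hl hl0 z hz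
  exact hb (by rw [mem_ball, dist_eq_norm]; exact (norm_sub_le_of_div hl0 hz).trans_lt hl)

theorem Sm.rs {f : ℂ → ℝ} (hf : Sm f) (z₁ : ℂ) {l : ℝ} (hl : 0 < l) : Sm (rs z₁ l f) := by
  refine ⟨contDiff_rs hf.1 z₁ l, ?_⟩
  obtain ⟨R, hR⟩ := hf.2.isCompact.isBounded.exists_norm_le
  refine (isCompact_closedBall z₁ (R * l)).of_isClosed_subset (isClosed_tsupport _) fun z hz => ?_
  rw [mem_closedBall, dist_eq_norm]
  exact norm_sub_le_of_div hl (hR _ (tsupport_rs z₁ l f hz))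

theorem ev_tst {f : ℂ → ℝ} (hf : Sm f) {z₀ z₁ : ℂ} {r₀ : ℝ} (h : z₁ ∈ ball z₀ r₀) :
    ∀ᶠ l : ℝ in 𝓝[>] 0, Tst (ball z₀ r₀) (rs z₁ l f) := by
  obtain ⟨R, hR⟩ := hf.2.isCompact.isBounded.exists_norm_le
  filter_upwards [ev_ball h R, self_mem_nhdsWithin] with l hl hl0
  exact ⟨(hf.rs z₁ hl0).1, (hf.rs z₁ hl0).2, fun z hz => hl z (hR _ (tsupport_rs z₁ l f hz))⟩

/-! ### Lebesgue points -/

theorem exists_leb {E : Type} [NormedAddCommGroup E] [MeasurableSpace E] [BorelSpace E]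
    [SecondCountableTopology E] {a : ℂ → E} (ha : Measurable a) {M : ℝ} (hM : ∀ z, ‖a z‖ ≤ M)
    (z₀ : ℂ) {r₀ : ℝ} (hr : 0 < r₀) : ∃ z₁ ∈ ball z₀ r₀, ∀ G : ℂ → ℝ, Sm G →
      Tendsto (fun l : ℝ => ∫ z, ‖a z - a z₁‖ * (l⁻¹ ^ 2 * G ((z - z₁) / (l : ℂ)))) (𝓝[>] 0)
        (𝓝 0) := by
  have hloc : LocallyIntegrable a volume := by
    refine fun x => ⟨ball x 1, ball_mem_nhds x one_pos, ?_⟩
    exact Measure.integrableOn_of_bounded measure_ball_lt_top.ne ha.aestronglyMeasurable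
      (M := M) (Eventually.of_forall hM)
  have hae := IsUnifLocDoublingMeasure.ae_tendsto_average_norm_sub.{0, 0, 0} (volume : Measure ℂ)
    hloc 1
  obtain ⟨z₁, hz₁, hz⟩ := Measure.exists_mem_of_measure_ne_zero_of_ae
    (measure_ball_pos volume z₀ hr).ne' (ae_restrict_of_ae hae)
  refine ⟨z₁, hz₁, fun G hG => ?_⟩
  obtain ⟨R0, hR0⟩ := hG.2.isCompact.isBounded.exists_norm_le
  set R := |R0| + 1 with hRdef
  have hRpos : 0 < R := by positivity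
  have hR : ∀ ζ ∈ tsupport G, ‖ζ‖ ≤ R := fun ζ h => by
    linarith [hR0 ζ h, le_abs_self R0]
  obtain ⟨N, hN⟩ := hG.cont.bounded_above_of_compact_support hG.2
  have hδ : Tendsto (fun l : ℝ => R * l) (𝓝[>] 0) (𝓝[>] 0) := by
    refine tendsto_nhdsWithin_iff.2 ⟨?_, ?_⟩
    · have : Tendsto (fun l : ℝ => R * l) (𝓝 0) (𝓝 (R * 0)) := tendsto_id.const_mul R
      rw [mul_zero] at this
      exact this.mono_left nhdsWithin_le_nhds
    · filter_upwards [self_mem_nhdsWithin] with l hl using mul_pos hRpos hl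
  have hlim := hz (l := 𝓝[>] (0 : ℝ)) (fun _ => z₁) (fun l => R * l) hδ (by
    filter_upwards [self_mem_nhdsWithin] with l hl
    exact mem_closedBall_self (by have : 0 < l := hl; positivity))
  have hlim2 := hlim.const_mul (N * (R ^ 2 * Real.pi))
  rw [mul_zero] at hlim2
  refine squeeze_zero_norm' ?_ hlim2
  filter_upwards [self_mem_nhdsWithin] with l hl
  have hl : 0 < l := hl
  have hint : IntegrableOn (fun z => ‖a z - a z₁‖) (closedBall z₁ (R * l)) :=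
    ((hloc.integrableOn_isCompact (isCompact_closedBall _ _)).sub
      (integrableOn_const measure_closedBall_lt_top.ne)).norm
  have h1 : ‖∫ z, ‖a z - a z₁‖ * (l⁻¹ ^ 2 * G ((z - z₁) / (l : ℂ)))‖ ≤
      ∫ z, (closedBall z₁ (R * l)).indicator (fun z => l⁻¹ ^ 2 * N * ‖a z - a z₁‖) z := by
    refine norm_integral_le_of_norm_le
      ((integrable_indicator_iff measurableSet_closedBall).2 (hint.const_mul _))
      (Eventually.of_forall fun z => ?_)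
    by_cases hz : z ∈ closedBall z₁ (R * l)
    · rw [indicator_of_mem hz, norm_mul, norm_mul, norm_norm, Real.norm_of_nonneg (sq_nonneg _)]
      have := mul_le_mul_of_nonneg_left (hN ((z - z₁) / (l : ℂ)))
        (mul_nonneg (norm_nonneg (a z - a z₁)) (sq_nonneg l⁻¹))
      nlinarith
    · rw [indicator_of_notMem hz]
      have : G ((z - z₁) / (l : ℂ)) = 0 := by
        by_contra h
        exact hz (by
          rw [mem_closedBall, dist_eq_norm]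
          exact norm_sub_le_of_div hl (hR _ (subset_tsupport _ h)))
      simp [this]
  refine h1.trans (le_of_eq ?_)
  rw [integral_indicator measurableSet_closedBall, integral_const_mul, setAverage_eq,
    Measure.real, Complex.volume_closedBall, smul_eq_mul]
  have h2 : (ENNReal.ofReal (R * l) ^ 2 * (NNReal.pi : ENNReal)).toReal = (R * l) ^ 2 * Real.pi := by
    rw [ENNReal.toReal_mul, ENNReal.toReal_pow, ENNReal.toReal_ofReal (by positivity)]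
    rfl
  rw [h2]
  have := Real.pi_pos
  field_simp

/-! ### linear changes of variables -/

theorem int_lin (T : ℂ ≃L[ℝ] ℂ) : ∃ c : ℝ, 0 < c ∧ ∀ G : ℂ → ℝ, ∫ z, G (T z) = c * ∫ z, G z := by
  have hdet : LinearMap.det (T.toLinearEquiv : ℂ →ₗ[ℝ] ℂ) ≠ 0 :=
    T.toLinearEquiv.isUnit_det'.ne_zero
  have h := Measure.map_linearMap_addHaar_eq_smul_addHaar (volume : Measure ℂ) hdet
  refine ⟨|(LinearMap.det (T.toLinearEquiv : ℂ →ₗ[ℝ] ℂ))⁻¹|, abs_pos.2 (inv_ne_zero hdet),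
    fun G => ?_⟩
  have h2 := (T.toHomeomorph.toMeasurableEquiv.measurableEmbedding).integral_map
    (μ := (volume : Measure ℂ)) G
  have h3 : Measure.map T.toHomeomorph.toMeasurableEquiv (volume : Measure ℂ) = _ := h
  rw [h3, integral_smul_measure, ENNReal.toReal_ofReal (abs_nonneg _), smul_eq_mul] at h2
  exact h2.symm

theorem Dv_lin {f : ℂ → ℝ} (hf : ContDiff ℝ (⊤ : ℕ∞) f) (T : ℂ ≃L[ℝ] ℂ) (u z : ℂ) :
    Dv u (fun z => f (T z)) z = Dv (T u) f (T z) := by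
  have h2 := ((diff_of hf) _).hasFDerivAt.comp z T.hasFDerivAt
  unfold Dv
  change fderiv ℝ (f ∘ T) z u = _
  rw [h2.fderiv]
  rfl

theorem L2_lin {f : ℂ → ℝ} (hf : ContDiff ℝ (⊤ : ℕ∞) f) (T : ℂ ≃L[ℝ] ℂ) (u v z : ℂ) :
    L2 u v (fun z => f (T z)) z = L2 (T u) (T v) f (T z) := by
  have h : ∀ u, Dv u (Dv u (fun z => f (T z))) z = Dv (T u) (Dv (T u) f) (T z) := by
    intro u
    have : Dv u (fun z => f (T z)) = fun z => Dv (T u) f (T z) := funext (Dv_lin hf T u)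
    rw [this, Dv_lin (contDiff_Dv hf _)]
  unfold L2
  rw [h, h]

theorem Sm.lin {f : ℂ → ℝ} (hf : Sm f) (T : ℂ ≃L[ℝ] ℂ) : Sm (fun z => f (T z)) :=
  ⟨hf.1.comp T.contDiff, hf.2.comp_homeomorph T.toHomeomorph⟩

theorem L2_one {f : ℂ → ℝ} (hf : ContDiff ℝ (⊤ : ℕ∞) f) (z : ℂ) :
    L2 1 Complex.I f z = Laplacian.laplacian f z := by
  have hd : DifferentiableAt ℝ (fderiv ℝ f) z :=
    ((hf.fderiv_right (m := (⊤ : ℕ∞)) le_rfl).differentiable (by simp)) z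
  have h : ∀ u : ℂ, Dv u (Dv u f) z = iteratedFDeriv ℝ 2 f z ![u, u] := by
    intro u
    rw [iteratedFDeriv_two_apply]
    change fderiv ℝ (fun y => fderiv ℝ f y u) z u = _
    rw [fderiv_clm_apply hd (differentiableAt_const _)]
    simp
  rw [InnerProductSpace.laplacian_eq_iteratedFDeriv_complexPlane, L2, h, h]

theorem exists_equiv (p q : ℂ) (h : p.re * q.im - p.im * q.re ≠ 0) :
    ∃ T : ℂ ≃L[ℝ] ℂ, T 1 = p ∧ T Complex.I = q := by
  let S : ℂ →ₗ[ℝ] ℂ := Complex.reLm.smulRight p + Complex.imLm.smulRight q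
  have hS : ∀ z, S z = z.re • p + z.im • q := fun z => rfl
  have hinj : Function.Injective S := by
    refine (injective_iff_map_eq_zero S).2 fun z hz => ?_
    rw [hS] at hz
    have h1 := congrArg Complex.re hz
    have h2 := congrArg Complex.im hz
    simp only [Complex.add_re, Complex.smul_re, smul_eq_mul, Complex.zero_re, Complex.add_im,
      Complex.smul_im, Complex.zero_im] at h1 h2
    apply Complex.ext
    · exact (mul_eq_zero.1 (show z.re * (p.re * q.im - p.im * q.re) = 0 by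
        linear_combination q.im * h1 - q.re * h2)).resolve_right h
    · exact (mul_eq_zero.1 (show z.im * (p.re * q.im - p.im * q.re) = 0 by
        linear_combination p.re * h2 - p.im * h1)).resolve_right h
  refine ⟨(LinearEquiv.ofInjectiveEndo S hinj).toContinuousLinearEquiv, ?_, ?_⟩
  · change S 1 = p
    rw [hS]; simp
  · change S Complex.I = q
    rw [hS]; simp

theorem exists_test : ∃ b : ℂ → ℝ, Sm b ∧ 0 < ∫ z, dx b z ^ 2 := by
  obtain ⟨κ, -, hκ2, hκ1, -, hκ0⟩ := exists_contDiff_tsupport_subset (n := ⊤)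
    (x := (0 : ℂ)) (s := univ) univ_mem
  have hre : ContDiff ℝ (⊤ : ℕ∞) (fun z : ℂ => z.re) := Complex.reCLM.contDiff
  have hb : Sm (fun z => z.re * κ z) := Sm.mul hre ⟨hκ1, hκ2⟩
  refine ⟨_, hb, (hb.dv 1).sq.cont.integral_pos_of_hasCompactSupport_nonneg_nonzero (x := 0)
    (hb.dv 1).sq.2 (fun z => sq_nonneg _) (pow_ne_zero _ ?_)⟩
  have h := Complex.reCLM.hasFDerivAt.mul (x := (0 : ℂ)) (diff_of hκ1 0).hasFDerivAt
  change fderiv ℝ (⇑Complex.reCLM * κ) (0 : ℂ) (1 : ℂ) ≠ 0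
  rw [h.fderiv]
  simp [hκ0]

theorem quad_pos {C α β γ : ℝ} (h : ∀ f, Sm f → dir f ≤ C * ∫ z, q0 α β γ f f z) (x y : ℝ)
    (hxy : 0 < x ^ 2 + y ^ 2) : 0 < C * (α * x ^ 2 + 2 * β * x * y + γ * y ^ 2) := by
  obtain ⟨b, hb, hP⟩ := exists_test
  set P := ∫ z, dx b z ^ 2
  set Q := ∫ z, dx b z * dy b z
  set R := ∫ z, dy b z ^ 2
  have hiP : Integrable fun z => dx b z ^ 2 := (hb.dv 1).sq.int
  have hiQ : Integrable fun z => dx b z * dy b z := (Sm.mul (hb.dv 1).1 (hb.dv Complex.I)).int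
  have hiR : Integrable fun z => dy b z ^ 2 := (hb.dv Complex.I).sq.int
  have hlin : ∀ r s t : ℝ, ∫ z, (r * dx b z ^ 2 + s * (dx b z * dy b z) + t * dy b z ^ 2) =
      r * P + s * Q + t * R := by
    intro r s t
    have hi2 : Integrable fun z => r * dx b z ^ 2 + s * (dx b z * dy b z) :=
      (hiP.const_mul r).add (hiQ.const_mul s)
    rw [integral_add hi2 (hiR.const_mul t),
      integral_add (hiP.const_mul r) (hiQ.const_mul s), integral_const_mul, integral_const_mul,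
      integral_const_mul]
  have key : ∀ ε : ℝ, 0 < ε → (x ^ 2 + y ^ 2) * P + 0 * Q + ε ^ 2 * (x ^ 2 + y ^ 2) * R ≤
      C * ((α * x ^ 2 + 2 * β * x * y + γ * y ^ 2) * P +
        2 * ε * (-α * x * y + β * (x ^ 2 - y ^ 2) + γ * x * y) * Q +
        ε ^ 2 * (α * y ^ 2 - 2 * β * x * y + γ * x ^ 2) * R) := by
    intro ε hε
    obtain ⟨T, hT1, hTI⟩ := exists_equiv ⟨x, -(ε * y)⟩ ⟨y, ε * x⟩ (by
      have : 0 < ε * (x ^ 2 + y ^ 2) := by positivity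
      simp only; nlinarith)
    obtain ⟨c, hc, hint⟩ := int_lin T
    have h1 := h _ (hb.lin T)
    have hdx : ∀ z, dx (fun z => b (T z)) z = x * dx b (T z) - ε * y * dy b (T z) := fun z => by
      rw [dx_eq, Dv_lin hb.1, hT1, Dv_eq]; simp only; ring
    have hdy : ∀ z, dy (fun z => b (T z)) z = y * dx b (T z) + ε * x * dy b (T z) := fun z => by
      rw [dy_eq, Dv_lin hb.1, hTI, Dv_eq]
    have e1 : dir (fun z => b (T z)) =
        c * ((x ^ 2 + y ^ 2) * P + 0 * Q + ε ^ 2 * (x ^ 2 + y ^ 2) * R) := by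
      rw [← hlin, ← hint, dir]
      refine integral_congr_ae (Eventually.of_forall fun z => ?_)
      simp only [hdx, hdy]; ring
    have e2 : ∫ z, q0 α β γ (fun z => b (T z)) (fun z => b (T z)) z =
        c * ((α * x ^ 2 + 2 * β * x * y + γ * y ^ 2) * P +
        2 * ε * (-α * x * y + β * (x ^ 2 - y ^ 2) + γ * x * y) * Q +
        ε ^ 2 * (α * y ^ 2 - 2 * β * x * y + γ * x ^ 2) * R) := by
      rw [← hlin, ← hint]
      refine integral_congr_ae (Eventually.of_forall fun z => ?_)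
      simp only [q0, hdx, hdy]; ring
    rw [e1, e2, mul_left_comm] at h1
    exact le_of_mul_le_mul_left h1 hc
  have hlim : (x ^ 2 + y ^ 2) * P + 0 * Q + (0 : ℝ) ^ 2 * (x ^ 2 + y ^ 2) * R ≤
      C * ((α * x ^ 2 + 2 * β * x * y + γ * y ^ 2) * P +
        2 * 0 * (-α * x * y + β * (x ^ 2 - y ^ 2) + γ * x * y) * Q +
        (0 : ℝ) ^ 2 * (α * y ^ 2 - 2 * β * x * y + γ * x ^ 2) * R) := by
    refine le_of_tendsto_of_tendsto (b := 𝓝[>] (0 : ℝ)) (Continuous.tendsto ?_ 0 |>.mono_left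
      nhdsWithin_le_nhds) (Continuous.tendsto ?_ 0 |>.mono_left nhdsWithin_le_nhds)
      (eventually_mem_nhdsWithin.mono fun ε hε => key ε hε) <;> fun_prop
  have h2 : 0 < C * (α * x ^ 2 + 2 * β * x * y + γ * y ^ 2) * P := by
    have := mul_pos hxy hP
    nlinarith
  exact pos_of_mul_pos_left h2 hP.le

theorem posdef {C α β γ : ℝ} (hC : 0 < C) (h : ∀ f, Sm f → dir f ≤ C * ∫ z, q0 α β γ f f z) :
    ∃ (u v : ℂ) (T : ℂ ≃L[ℝ] ℂ), T u = 1 ∧ T v = Complex.I ∧ Rel u v α β γ := by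
  have h1 := quad_pos h 1 0 (by norm_num)
  have hα : 0 < α := by
    have := pos_of_mul_pos_right h1 hC.le
    linarith
  have h2 := pos_of_mul_pos_right (quad_pos h (-β) α (by positivity)) hC.le
  have hd : 0 < γ - β ^ 2 / α := by
    have : γ - β ^ 2 / α = (α * (-β) ^ 2 + 2 * β * -β * α + γ * α ^ 2) / α ^ 2 := by
      field_simp; ring
    rw [this]; positivity
  have s1 := Real.sqrt_pos.2 hα
  have s2 := Real.sqrt_pos.2 hd
  obtain ⟨S, hS1, hSI⟩ := exists_equiv ⟨√α, β / √α⟩ ⟨0, √(γ - β ^ 2 / α)⟩ (by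
    simp only [mul_zero, sub_zero]; positivity)
  refine ⟨⟨√α, β / √α⟩, ⟨0, √(γ - β ^ 2 / α)⟩, S.symm, by rw [← hS1, S.symm_apply_apply],
    by rw [← hSI, S.symm_apply_apply], ?_, ?_, ?_⟩
  · simp [Real.sq_sqrt hα.le]
  · simp only [zero_mul, add_zero]; field_simp
  · simp only [div_pow, Real.sq_sqrt hα.le, Real.sq_sqrt hd.le]; ring

/-- comparing integrals against a compactly supported function -/
theorem int_close {K : Set ℂ} (hK : IsCompact K) {L U U' : ℂ → ℝ} (hL : Sm L)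
    (hLK : ∀ z, z ∉ K → L z = 0) (hU : ContinuousOn U K) (hU' : ContinuousOn U' K) {ε : ℝ}
    (h : ∀ z ∈ K, |U z - U' z| ≤ ε) :
    |(∫ z, U z * L z) - ∫ z, U' z * L z| ≤ ε * ∫ z, |L z| := by
  have hi : ∀ {U : ℂ → ℝ}, ContinuousOn U K → Integrable fun z => U z * L z := by
    intro U hU
    refine (integrableOn_iff_integrable_of_support_subset (s := K) fun z hz => ?_).1
      ((hU.mul hL.cont.continuousOn).integrableOn_compact hK)
    by_contra hzK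
    exact hz (by simp [hLK z hzK])
  rw [← integral_sub (hi hU) (hi hU'), ← integral_const_mul, ← Real.norm_eq_abs]
  refine norm_integral_le_of_norm_le (hL.int.abs.const_mul ε) (Eventually.of_forall fun z => ?_)
  rw [← sub_mul, Real.norm_eq_abs, abs_mul]
  by_cases hz : z ∈ K
  · exact mul_le_mul_of_nonneg_right (h z hz) (abs_nonneg _)
  · simp [hLK z hz]

/-- cut-off functions -/
theorem exists_cut {K O : Set ℂ} (hK : IsCompact K) (hO : IsOpen O) (h : K ⊆ O) :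
    ∃ κ : ℂ → ℝ, Sm κ ∧ tsupport κ ⊆ O ∧ ∀ z ∈ K, κ =ᶠ[𝓝 z] fun _ => 1 := by
  obtain ⟨K', hK', h1, h2⟩ := exists_compact_between hK hO h
  obtain ⟨κ, hκ1, hκ0, -⟩ := exists_contMDiffMap_one_nhds_of_subset_interior
    (modelWithCornersSelf ℝ ℂ) (n := ⊤) hK.isClosed h1
  have hs : tsupport κ ⊆ K' :=
    closure_minimal (fun z hz => by by_contra hz'; exact hz (hκ0 z hz')) hK'.isClosed
  exact ⟨κ, ⟨κ.contMDiff.contDiff, hK'.of_isClosed_subset (isClosed_tsupport _) hs⟩, hs.trans h2,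
    fun z hz => hκ1.filter_mono (nhds_le_nhdsSet hz)⟩

/-- the four harmonic polynomials -/
theorem harm_of_holo {P : ℂ → ℂ} (hP : Differentiable ℂ P) (ℓ : ℂ →L[ℝ] ℝ) :
    ContDiff ℝ (⊤ : ℕ∞) (fun z => ℓ (P z)) ∧
      ∀ z, L2 1 Complex.I (fun z => ℓ (P z)) z = 0 := by
  have h1 : ContDiff ℝ (⊤ : ℕ∞) (fun z => ℓ (P z)) :=
    ℓ.contDiff.comp ((hP.contDiff (n := (⊤ : ℕ∞))).restrict_scalars ℝ)
  refine ⟨h1, fun z => ?_⟩
  rw [L2_one h1]
  have h2 := ((hP.analyticAt z).harmonicAt).comp_CLM ℓ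
  exact h2.2.self_of_nhds

end Crest.Agent.R193.PB
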