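import Crest.Agent.R193.P.Ext
import Crest.Agent.R193.B.Ad

/-!
# R193/P/Conj: the blown-up action is weakly harmonic for the frozen operator
-/

set_option autoImplicit false
open Set Metric Filter Topology MeasureTheory

namespace Crest.Agent.R193.PB

theorem continuousOn_cx : ContinuousOn cx {p | p ≠ OnePoint.infty} := by
  intro p hp
  induction p using OnePoint.rec with
  | infty => exact absurd rfl hp
  | coe z => exact (OnePoint.continuousAt_coe.2 (show ContinuousAt (cx ∘ _) z from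
      continuousAt_id)).continuousWithinAt

theorem coe_cx {p : OnePoint ℂ} (hp : p ≠ OnePoint.infty) : ((cx p : ℂ) : OnePoint ℂ) = p := by
  induction p using OnePoint.rec with
  | infty => exact absurd rfl hp
  | coe z => rfl

variable {G : Type} [Group G] {Z : Type} [MetricSpace Z] [MulAction G Z] {φ : Z → ℂ} {V : Set Z}

/-- finite part of the conjugated map -/
noncomputable def cj (Φ : Z ≃ₜ OnePoint ℂ) (h : G) (ζ : ℂ) : ℂ := cx (Φ (h • Φ.symm ζ))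

/-- where the conjugated map is finite -/
def Om (Φ : Z ≃ₜ OnePoint ℂ) (h : G) : Set ℂ := {ζ | Φ (h • Φ.symm ζ) ≠ OnePoint.infty}

theorem cj_mem {Φ : Z ≃ₜ OnePoint ℂ} {h : G} {ζ : ℂ} (hζ : ζ ∈ Om Φ h) :
    Φ (h⁻¹ • Φ.symm (cj Φ h ζ)) = ζ := by
  rw [cj, coe_cx hζ, Φ.symm_apply_apply, inv_smul_smul, Φ.apply_symm_apply]

/-- output of `zoom` -/
structure Zm (φ : Z → ℂ) (V : Set Z) (z₁ : ℂ) (g : ℕ → G) (lam : ℕ → ℝ) (Φ : Z ≃ₜ OnePoint ℂ) :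
    Prop where
  pos : ∀ n, 0 < lam n
  lim : Tendsto lam atTop (𝓝 0)
  one : ∀ K : Set Z, IsCompact K → (∀ y ∈ K, Φ y ≠ OnePoint.infty) → ∀ ε : ℝ, 0 < ε →
    ∀ᶠ n in 𝒰, ∀ y ∈ K, (g n)⁻¹ • y ∈ V ∧ ‖(φ ((g n)⁻¹ • y) - z₁) / (lam n : ℂ) - cx (Φ y)‖ ≤ ε
  two : ∀ R ε : ℝ, 0 < ε → ∀ᶠ n in 𝒰, ∀ y ∈ V, ‖φ y - z₁‖ ≤ R * lam n →
    dist (g n • y) (Φ.symm (((φ y - z₁) / (lam n : ℂ) : ℂ) : OnePoint ℂ)) ≤ ε

variable {z₁ : ℂ} {g : ℕ → G} {lam : ℕ → ℝ} {Φ : Z ≃ₜ OnePoint ℂ}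

theorem Zm.limU (hZ : Zm φ V z₁ g lam Φ) : Tendsto lam 𝒰 (𝓝[>] 0) :=
  tendsto_nhdsWithin_iff.2 ⟨hZ.lim.mono_left 𝒰_le, Eventually.of_forall hZ.pos⟩

variable [ContinuousConstSMul G Z]

theorem isOpen_fin (Φ : Z ≃ₜ OnePoint ℂ) (h : G) :
    IsOpen {y : Z | Φ (h • y) ≠ OnePoint.infty} :=
  isOpen_ne_fun (Φ.continuous.comp (continuous_const_smul h)) continuous_const

theorem continuousOn_fin (Φ : Z ≃ₜ OnePoint ℂ) (h : G) :
    ContinuousOn (fun y : Z => cx (Φ (h • y))) {y : Z | Φ (h • y) ≠ OnePoint.infty} :=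
  continuousOn_cx.comp (Φ.continuous.comp (continuous_const_smul h)).continuousOn fun _ hy => hy

theorem isOpen_Om (Φ : Z ≃ₜ OnePoint ℂ) (h : G) : IsOpen (Om Φ h) :=
  (isOpen_fin Φ h).preimage (Φ.symm.continuous.comp OnePoint.continuous_coe)

theorem continuousOn_cj (Φ : Z ≃ₜ OnePoint ℂ) (h : G) : ContinuousOn (cj Φ h) (Om Φ h) :=
  (continuousOn_fin Φ h).comp (Φ.symm.continuous.comp OnePoint.continuous_coe).continuousOn
    fun _ hy => hy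

variable [CompactSpace Z]

theorem Zm.conj (hZ : Zm φ V z₁ g lam Φ) (h : G) {K : Set ℂ} (hK : IsCompact K)
    (hKO : K ⊆ Om Φ h) {ε : ℝ} (hε : 0 < ε) : ∀ᶠ n in 𝒰, ∀ y ∈ V, (φ y - z₁) / (lam n : ℂ) ∈ K →
      ((g n)⁻¹ * h * g n) • y ∈ V ∧
      ‖(φ (((g n)⁻¹ * h * g n) • y) - z₁) / (lam n : ℂ) - cj Φ h ((φ y - z₁) / (lam n : ℂ))‖ ≤ ε := by
  set K0 := (fun ζ : ℂ => Φ.symm ζ) '' K with hK0
  have hK0c : IsCompact K0 := hK.image (Φ.symm.continuous.comp OnePoint.continuous_coe)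
  obtain ⟨δ0, hδ0, hsub⟩ := hK0c.exists_cthickening_subset_open (isOpen_fin Φ h) (by
    rintro _ ⟨ζ, hζ, rfl⟩; exact hKO hζ)
  have hK1 : IsCompact (cthickening δ0 K0) := isClosed_cthickening.isCompact
  obtain ⟨δ1, hδ1, huc⟩ := Metric.uniformContinuousOn_iff.1
    (hK1.uniformContinuousOn_of_continuous ((continuousOn_fin Φ h).mono hsub)) (ε / 2)
    (half_pos hε)
  obtain ⟨R, hR⟩ := hK.isBounded.exists_norm_le
  filter_upwards [hZ.one ((fun y => h • y) '' cthickening δ0 K0)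
    (hK1.image (continuous_const_smul h)) (by rintro _ ⟨y, hy, rfl⟩; exact hsub hy) (ε / 2)
    (half_pos hε), hZ.two R (min δ0 (δ1 / 2)) (by positivity)] with n h1 h2 y hy hyK
  have h3 := h2 y hy (norm_sub_le_of_div (hZ.pos n) (hR _ hyK))
  have h4 : Φ.symm (((φ y - z₁) / (lam n : ℂ) : ℂ) : OnePoint ℂ) ∈ K0 := ⟨_, hyK, rfl⟩
  have h5 : g n • y ∈ cthickening δ0 K0 :=
    mem_cthickening_of_dist_le _ _ _ _ h4 (h3.trans (min_le_left _ _))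
  obtain ⟨h6, h7⟩ := h1 _ ⟨_, h5, rfl⟩
  have h8 := huc _ h5 _ (self_subset_cthickening _ h4)
    ((h3.trans (min_le_right _ _)).trans_lt (half_lt_self hδ1))
  rw [mul_smul, mul_smul]
  refine ⟨h6, ?_⟩
  rw [dist_eq_norm] at h8
  have h9 := norm_sub_le_norm_sub_add_norm_sub
    ((φ ((g n)⁻¹ • h • g n • y) - z₁) / (lam n : ℂ)) (cx (Φ (h • g n • y)))
    (cj Φ h ((φ y - z₁) / (lam n : ℂ)))
  simp only [cj] at h7 h8 h9 ⊢
  linarith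

variable [Nonempty Z]

theorem Zm.adm (hZ : Zm φ V z₁ g lam Φ) (hφ : QC φ V) (F : Form G φ V)
    (hz : z₁ ∈ ball F.z₀ F.r₀) (h : G) {ψ : ℂ → ℝ} (hψ : Sm ψ) (hs : tsupport ψ ⊆ Om Φ h⁻¹) :
    ∀ᶠ n in 𝒰, Adm F (fun y => ext φ V (rs z₁ (lam n) ψ) (((g n)⁻¹ * h * g n) • y)) := by
  obtain ⟨R, hR⟩ := (hψ.2.isCompact.image_of_continuousOn
    ((continuousOn_cj Φ h⁻¹).mono hs)).isBounded.exists_norm_le
  filter_upwards [hZ.limU.eventually (ev_tst hψ hz), hZ.limU.eventually (ev_ball hz (1 + R)),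
    hZ.conj h⁻¹ hψ.2.isCompact hs one_pos] with n h1 h2 h3
  refine ⟨F.inv_D _ _ (F.tst_D _ h1),
    (continuous_ext hφ F.sub h1).comp (continuous_const_smul _), fun y hy => ?_⟩
  obtain ⟨h4, h5⟩ := tsupport_ext hφ F.sub h1
    (tsupport_comp_subset (continuous_const_smul ((g n)⁻¹ * h * g n)) hy)
  have h6 := tsupport_rs _ _ _ h5
  obtain ⟨h7, h8⟩ := h3 _ h4 h6
  have e : ((g n)⁻¹ * h⁻¹ * g n) • ((g n)⁻¹ * h * g n) • y = y := by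
    rw [← mul_smul]; simp [mul_assoc]
  rw [e] at h7 h8
  refine ⟨h7, h2 _ ?_⟩
  have h9 := hR _ ⟨_, h6, rfl⟩
  have h10 := norm_le_norm_sub_add ((φ y - z₁) / (lam n : ℂ))
    (cj Φ h⁻¹ ((φ (((g n)⁻¹ * h * g n) • y) - z₁) / (lam n : ℂ)))
  linarith

theorem Zm.half (hZ : Zm φ V z₁ g lam Φ) (hφ : QC φ V) (F : Form G φ V) (hz : Leb F z₁) {u v : ℂ}
    (hr : Rel u v (F.a₁ z₁) (F.a₂ z₁) (F.a₃ z₁)) (h : G) {χ ψ : ℂ → ℝ} (hχ : Sm χ) (hψ : Sm ψ)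
    (hsχ : tsupport χ ⊆ Om Φ h) (hsψ : tsupport ψ ⊆ Om Φ h⁻¹) :
    Tendsto (fun n => F.B (fun y => ext φ V (rs z₁ (lam n) ψ) (((g n)⁻¹ * h * g n) • y))
      (ext φ V (rs z₁ (lam n) χ))) 𝒰 (𝓝 (-∫ ζ, ψ (cj Φ h ζ) * L2 u v χ ζ)) := by
  refine Metric.tendsto_nhds.2 fun ε hε => ?_
  set I := ∫ z, |L2 u v χ z| with hI
  have hI0 : 0 ≤ I := integral_nonneg fun z => abs_nonneg _
  obtain ⟨δ, hδ, huc⟩ := Metric.uniformContinuous_iff.1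
    (hψ.2.uniformContinuous_of_continuous hψ.cont) (ε / 2 / (I + 1)) (by positivity)
  obtain ⟨R, hR⟩ := hχ.2.isCompact.isBounded.exists_norm_le
  have hM : 0 ≤ 2 * F.C * dir ψ := mul_nonneg (by linarith [F.C_pos]) (dir_nonneg ψ)
  filter_upwards [hZ.adm hφ F hz.1 h hψ hsψ, hZ.limU.eventually (ev_tst hψ hz.1),
    hZ.limU.eventually (ev_ball hz.1 R), hZ.conj h hχ.2.isCompact hsχ (half_pos hδ),
    hZ.limU.eventually (p1' hφ F hz hr hχ hM (half_pos hε))] with n h1 h2 h3 h4 h5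
  set w := fun y => ext φ V (rs z₁ (lam n) ψ) (((g n)⁻¹ * h * g n) • y) with hw
  have hB : F.B w w ≤ 2 * F.C * dir ψ := by
    rw [hw, F.inv_B _ _ _ (F.tst_D _ h2) (F.tst_D _ h2), ← dir_rs hψ.1 z₁ (hZ.pos n)]
    exact B_le F h2
  have h6 := h5 w h1 hB
  have hmem : ∀ ζ ∈ tsupport χ, z₁ + lam n * ζ ∈ φ '' V := fun ζ hζ =>
    F.sub (h3 _ (by rw [rs_apply z₁ (hZ.pos n)]; exact hR ζ hζ))
  have h7 := int_close hχ.2.isCompact (hχ.l2 u v) (fun z hz => L2_of_notMem hz u v)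
    (U := fun ζ => w (iv φ V (z₁ + lam n * ζ))) (U' := fun ζ => ψ (cj Φ h ζ))
    (h1.2.1.comp_continuousOn ((continuousOn_iv hφ).comp (by fun_prop) hmem))
    (hψ.cont.comp_continuousOn ((continuousOn_cj Φ h).mono hsχ)) (ε := ε / 2 / (I + 1))
    fun ζ hζ => by
      have e : (φ (iv φ V (z₁ + lam n * ζ)) - z₁) / (lam n : ℂ) = ζ := by
        rw [iv_eq (hmem ζ hζ), rs_apply z₁ (hZ.pos n)]
      obtain ⟨h8, h9⟩ := h4 _ (iv_mem (hmem ζ hζ)) (by rwa [e])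
      rw [e, ← dist_eq_norm] at h9
      have h10 := huc (h9.trans_lt (half_lt_self hδ))
      simp only [hw, ext_apply _ h8, rs]
      exact h10.le
  have h8 : ε / 2 / (I + 1) * I < ε / 2 := by
    rw [div_mul_eq_mul_div, div_lt_iff₀ (by positivity)]
    nlinarith
  rw [Real.dist_eq, sub_neg_eq_add]
  rw [← hI] at h7
  have h9 := abs_le.1 h6
  have h10 := abs_le.1 h7
  exact abs_lt.2 ⟨by linarith, by linarith⟩

theorem Zm.dual (hZ : Zm φ V z₁ g lam Φ) (hφ : QC φ V) (F : Form G φ V) (hz : Leb F z₁) {u v : ℂ}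
    (hr : Rel u v (F.a₁ z₁) (F.a₂ z₁) (F.a₃ z₁)) (h : G) {χ ψ : ℂ → ℝ} (hχ : Sm χ) (hψ : Sm ψ)
    (hsχ : tsupport χ ⊆ Om Φ h) (hsψ : tsupport ψ ⊆ Om Φ h⁻¹) :
    ∫ ζ, ψ (cj Φ h ζ) * L2 u v χ ζ = ∫ ζ, χ (cj Φ h⁻¹ ζ) * L2 u v ψ ζ := by
  have h1 := hZ.half hφ F hz hr h hχ hψ hsχ hsψ
  have h2 := hZ.half hφ F hz hr h⁻¹ hψ hχ hsψ (by rwa [inv_inv])
  refine neg_injective (tendsto_nhds_unique (h1.congr' ?_) h2)
  filter_upwards [hZ.limU.eventually (ev_tst hψ hz.1), hZ.limU.eventually (ev_tst hχ hz.1)]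
    with n h3 h4
  have hD := F.inv_D ((g n)⁻¹ * h⁻¹ * g n) _ (F.tst_D _ h4)
  rw [F.symm _ _ hD (F.tst_D _ h3), ← F.inv_B ((g n)⁻¹ * h * g n) _ _ (F.tst_D _ h3) hD]
  congr 1
  funext y
  rw [← mul_smul]; simp [mul_assoc]

theorem Zm.harm (hZ : Zm φ V z₁ g lam Φ) (hφ : QC φ V) (F : Form G φ V) (hz : Leb F z₁) {u v : ℂ}
    (hr : Rel u v (F.a₁ z₁) (F.a₂ z₁) (F.a₃ z₁)) (h : G) {χ P : ℂ → ℝ} (hχ : Tst (Om Φ h) χ)
    (hP : ContDiff ℝ (⊤ : ℕ∞) P) (hP0 : ∀ z, L2 u v P z = 0) :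
    ∫ ζ, P (cj Φ h ζ) * L2 u v χ ζ = 0 := by
  obtain ⟨κ, hκ, hκs, hκ1⟩ := exists_cut (hχ.2.1.isCompact.image_of_continuousOn
    ((continuousOn_cj Φ h).mono hχ.2.2)) (isOpen_Om Φ h⁻¹) (by
      rintro _ ⟨ζ, hζ, rfl⟩
      change Φ _ ≠ _
      rw [cj_mem (hχ.2.2 hζ)]
      exact OnePoint.coe_ne_infty ζ)
  have hsψ : tsupport (fun z => P z * κ z) ⊆ Om Φ h⁻¹ := tsupport_mul_subset_right.trans hκs
  have h1 := hZ.dual hφ F hz hr h (Tst.sm hχ) (Sm.mul hP hκ) hχ.2.2 hsψ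
  have h2 : ∀ ζ, χ (cj Φ h⁻¹ ζ) * L2 u v (fun z => P z * κ z) ζ = 0 := by
    intro ζ
    by_cases hζ : ζ ∈ tsupport (fun z => P z * κ z)
    · by_cases hχ0 : χ (cj Φ h⁻¹ ζ) = 0
      · rw [hχ0, zero_mul]
      · have e : cj Φ h (cj Φ h⁻¹ ζ) = ζ := by
          have := cj_mem (hsψ hζ)
          rw [inv_inv] at this
          rw [cj, this, cx_coe]
        have e2 := hκ1 ζ ⟨_, subset_tsupport _ hχ0, e⟩
        rw [L2_congr (h := P) (e2.mono fun z hz => by simp only [hz, mul_one]), hP0, mul_zero]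
    · rw [L2_of_notMem hζ, mul_zero]
  simp only [h2, integral_zero] at h1
  rw [← h1]
  refine integral_congr_ae (Eventually.of_forall fun ζ => ?_)
  by_cases hζ : ζ ∈ tsupport χ
  · simp only [(hκ1 _ ⟨ζ, hζ, rfl⟩).self_of_nhds, mul_one]
  · simp only [L2_of_notMem hζ, mul_zero]

end Crest.Agent.R193.PB
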