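import Crest.Agent.R193.P.Calc

/-!
# R193/P/Ext: the form in the chart; ellipticity; comparison with the frozen operator
-/

set_option autoImplicit false
open Set Metric Filter Topology MeasureTheory

namespace Crest.Agent.R193.PB

variable {Z : Type} [MetricSpace Z] [Nonempty Z] {φ : Z → ℂ} {V : Set Z}

/-- inverse of the chart -/
noncomputable def iv (φ : Z → ℂ) (V : Set Z) : ℂ → Z := Function.invFunOn φ V

omit [MetricSpace Z] in
theorem iv_mem {z : ℂ} (hz : z ∈ φ '' V) : iv φ V z ∈ V := Function.invFunOn_mem hz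

omit [MetricSpace Z] in
theorem iv_eq {z : ℂ} (hz : z ∈ φ '' V) : φ (iv φ V z) = z := Function.invFunOn_eq hz

theorem iv_apply (hφ : QC φ V) {y : Z} (hy : y ∈ V) : iv φ V (φ y) = y :=
  hφ.inj.leftInvOn_invFunOn hy

theorem continuousOn_iv (hφ : QC φ V) : ContinuousOn (iv φ V) (φ '' V) := by
  refine (continuousOn_open_iff (hφ.openMap V Subset.rfl hφ.isOpen)).2 fun t ht => ?_
  have : φ '' V ∩ iv φ V ⁻¹' t = φ '' (V ∩ t) := by
    ext z
    constructor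
    · rintro ⟨hz, hz'⟩
      exact ⟨_, ⟨iv_mem hz, hz'⟩, iv_eq hz⟩
    · rintro ⟨y, ⟨hy, hy'⟩, rfl⟩
      exact ⟨⟨y, hy, rfl⟩, by rwa [mem_preimage, iv_apply hφ hy]⟩
  rw [this]
  exact hφ.openMap _ inter_subset_left (hφ.isOpen.inter ht)

omit [MetricSpace Z] [Nonempty Z] in
theorem ext_apply (f : ℂ → ℝ) {y : Z} (hy : y ∈ V) : ext φ V f y = f (φ y) :=
  indicator_of_mem hy _

theorem tsupport_ext (hφ : QC φ V) {Ω : Set ℂ} (hΩ : Ω ⊆ φ '' V) {f : ℂ → ℝ} (hf : Tst Ω f) :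
    tsupport (ext φ V f) ⊆ {y | y ∈ V ∧ φ y ∈ tsupport f} := by
  have hs : tsupport f ⊆ φ '' V := hf.2.2.trans hΩ
  have h1 : {y | y ∈ V ∧ φ y ∈ tsupport f} = iv φ V '' tsupport f := by
    ext y
    constructor
    · rintro ⟨hy, hy'⟩
      exact ⟨_, hy', iv_apply hφ hy⟩
    · rintro ⟨z, hz, rfl⟩
      exact ⟨iv_mem (hs hz), by rwa [iv_eq (hs hz)]⟩
  refine closure_minimal (fun y hy => ?_) ?_
  · by_cases hV : y ∈ V
    · exact ⟨hV, subset_tsupport _ (by rwa [Function.mem_support, ext_apply f hV] at hy)⟩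
    · exact absurd (indicator_of_notMem hV _) hy
  · rw [h1]
    exact (hf.2.1.isCompact.image_of_continuousOn ((continuousOn_iv hφ).mono hs)).isClosed

theorem continuous_ext (hφ : QC φ V) {Ω : Set ℂ} (hΩ : Ω ⊆ φ '' V) {f : ℂ → ℝ} (hf : Tst Ω f) :
    Continuous (ext φ V f) := by
  refine ContinuousOn.continuous_of_tsupport_subset (s := V) ?_ hφ.isOpen
    fun y hy => (tsupport_ext hφ hΩ hf hy).1
  exact (hf.1.continuous.comp_continuousOn hφ.cont).congr fun y hy => ext_apply f hy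

variable {G : Type} [Group G] [MulAction G Z]

/-- functions to which `Form.approx` applies -/
def Adm (F : Form G φ V) (w : Z → ℝ) : Prop :=
  F.D w ∧ Continuous w ∧ tsupport w ⊆ V ∩ φ ⁻¹' ball F.z₀ F.r₀

theorem adm_ext (hφ : QC φ V) (F : Form G φ V) {f : ℂ → ℝ} (hf : Tst (ball F.z₀ F.r₀) f) :
    Adm F (ext φ V f) :=
  ⟨F.tst_D f hf, continuous_ext hφ F.sub hf, fun _ hy =>
    ⟨(tsupport_ext hφ F.sub hf hy).1, hf.2.2 (tsupport_ext hφ F.sub hf hy).2⟩⟩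

theorem tendsto_int (hφ : QC φ V) {Ω : Set ℂ} (hΩ : Ω ⊆ φ '' V) {f : ℕ → ℂ → ℝ}
    (hf : ∀ j, Tst Ω (f j)) {w : Z → ℝ} (hw : Continuous w)
    (hu : TendstoUniformly (fun j => ext φ V (f j)) w atTop) {χ : ℂ → ℝ} (hχ : Tst Ω χ)
    (u v : ℂ) : Tendsto (fun j => ∫ z, f j z * L2 u v χ z) atTop
      (𝓝 (∫ z, w (iv φ V z) * L2 u v χ z)) := by
  have hs : tsupport χ ⊆ φ '' V := hχ.2.2.trans hΩ
  set I := ∫ z, |L2 u v χ z| with hI
  have hI0 : 0 ≤ I := integral_nonneg fun z => abs_nonneg _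
  refine Metric.tendsto_nhds.2 fun ε hε => ?_
  filter_upwards [Metric.tendstoUniformly_iff.1 hu (ε / (I + 1)) (by positivity)] with j hj
  have h := int_close hχ.2.1.isCompact ((Tst.sm hχ).l2 u v) (fun z hz => L2_of_notMem hz u v)
    (hf j).1.continuous.continuousOn (hw.comp_continuousOn ((continuousOn_iv hφ).mono hs))
    (ε := ε / (I + 1)) fun z hz => by
      have := hj (iv φ V z)
      rw [ext_apply _ (iv_mem (hs hz)), iv_eq (hs hz), dist_comm, Real.dist_eq] at this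
      exact this.le
  rw [Real.dist_eq]
  refine h.trans_lt ?_
  rw [← hI, div_mul_eq_mul_div, div_lt_iff₀ (by positivity)]
  nlinarith

theorem tendsto_inv_succ : Tendsto (fun j : ℕ => 1 / ((j : ℝ) + 1)) atTop (𝓝 0) :=
  tendsto_one_div_add_atTop_nhds_zero_nat

theorem ellip (hφ : QC φ V) (F : Form G φ V) {f : ℂ → ℝ} (hf : Tst (ball F.z₀ F.r₀) f) :
    dir f ≤ F.C * F.B (ext φ V f) (ext φ V f) := by
  obtain ⟨hD, hc, hs⟩ := adm_ext hφ F hf
  obtain ⟨fj, hfj, hu, hdir, -⟩ := F.approx _ hD hc hs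
  have h1 := (tendsto_int hφ F.sub hfj hc hu hf 1 Complex.I).neg
  have h2 : ∫ z, ext φ V f (iv φ V z) * L2 1 Complex.I f z = ∫ z, f z * L2 1 Complex.I f z := by
    refine integral_congr_ae (Eventually.of_forall fun z => ?_)
    by_cases hz : z ∈ tsupport f
    · have hz' := F.sub (hf.2.2 hz)
      simp only [ext_apply f (iv_mem hz'), iv_eq hz']
    · simp only [L2_of_notMem hz, mul_zero]
  have h3 : ∫ z, q0 1 0 1 f f z = dir f :=
    integral_congr_ae (Eventually.of_forall fun z => by simp only [q0]; ring)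
  rw [h2, ← ibp_L2 (Tst.sm hf) (Tst.sm hf) rel_one, h3] at h1
  have h4 : Tendsto (fun j : ℕ => (F.C * (F.B (ext φ V f) (ext φ V f) + 1 / ((j : ℝ) + 1)) +
      dir f) / 2) atTop (𝓝 ((F.C * (F.B (ext φ V f) (ext φ V f) + 0) + dir f) / 2)) :=
    (((tendsto_inv_succ.const_add _).const_mul _).add_const _).div_const _
  have h5 := le_of_tendsto_of_tendsto' h1 h4 fun j => by
    have hj := Tst.sm (hfj j)
    rw [← ibp_L2 hj (Tst.sm hf) rel_one]
    have : ∫ z, q0 1 0 1 (fj j) f z ≤ ∫ z, (nr (fj j) z + nr f z) / 2 :=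
      integral_mono (hj.q0 (Tst.sm hf) 1 0 1).int ((hj.nr.add (Tst.sm hf).nr).int.div_const 2)
        fun z => by
          simp only [q0, nr]
          nlinarith [sq_nonneg (dx (fj j) z - dx f z), sq_nonneg (dy (fj j) z - dy f z)]
    rw [integral_div, integral_add hj.nr.int (Tst.sm hf).nr.int, ← dir_eq, ← dir_eq] at this
    linarith [hdir j]
  linarith

omit [Nonempty Z]

/-- the coefficient vector -/
def co (F : Form G φ V) (z : ℂ) : ℝ × ℝ × ℝ := (F.a₁ z, F.a₂ z, F.a₃ z)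

theorem measurable_co (F : Form G φ V) : Measurable (co F) :=
  F.meas.1.prodMk (F.meas.2.1.prodMk F.meas.2.2)

theorem norm_co_le (F : Form G φ V) (z : ℂ) : ‖co F z‖ ≤ F.C := by
  obtain ⟨h1, h2, h3⟩ := F.bound z
  simp only [co, Prod.norm_mk, Real.norm_eq_abs]
  exact max_le h1 (max_le h2 h3)

theorem co_sub (F : Form G φ V) (z z₁ : ℂ) : |F.a₁ z - F.a₁ z₁| ≤ ‖co F z - co F z₁‖ ∧
    |F.a₂ z - F.a₂ z₁| ≤ ‖co F z - co F z₁‖ ∧ |F.a₃ z - F.a₃ z₁| ≤ ‖co F z - co F z₁‖ :=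
  ⟨norm_fst_le (co F z - co F z₁), (norm_fst_le (co F z - co F z₁).2).trans (norm_snd_le _),
    (norm_snd_le (co F z - co F z₁).2).trans (norm_snd_le _)⟩

theorem norm_co_sub_le (F : Form G φ V) (z z₁ : ℂ) : ‖co F z - co F z₁‖ ≤ 2 * F.C := by
  linarith [norm_sub_le (co F z) (co F z₁), norm_co_le F z, norm_co_le F z₁]

theorem rep' (F : Form G φ V) {f h : ℂ → ℝ} (hf : Tst (ball F.z₀ F.r₀) f)
    (hh : Tst (ball F.z₀ F.r₀) h) :
    F.B (ext φ V f) (ext φ V h) = ∫ z, q0 (F.a₁ z) (F.a₂ z) (F.a₃ z) f h z := F.rep f h hf hh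

theorem int_q (F : Form G φ V) {f h : ℂ → ℝ} (hf : Sm f) (hh : Sm h) :
    Integrable fun z => q0 (F.a₁ z) (F.a₂ z) (F.a₃ z) f h z :=
  (((Sm.mul (hf.dv 1).1 (hh.dv 1)).int.bdd_mul F.meas.1.aestronglyMeasurable
    (Eventually.of_forall fun z => (F.bound z).1)).add
    (((Sm.mul (hf.dv 1).1 (hh.dv Complex.I)).add
      (Sm.mul (hf.dv Complex.I).1 (hh.dv 1))).int.bdd_mul F.meas.2.1.aestronglyMeasurable
      (Eventually.of_forall fun z => (F.bound z).2.1))).add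
    ((Sm.mul (hf.dv Complex.I).1 (hh.dv Complex.I)).int.bdd_mul F.meas.2.2.aestronglyMeasurable
      (Eventually.of_forall fun z => (F.bound z).2.2))

/-- the error term -/
noncomputable def er (F : Form G φ V) (z₁ : ℂ) (h : ℂ → ℝ) : ℝ :=
  ∫ z, ‖co F z - co F z₁‖ * nr h z

theorem cmp (F : Form G φ V) {f h : ℂ → ℝ} (hf : Sm f) (hh : Sm h) (z₁ : ℂ) {t : ℝ} (ht : 0 < t) :
    |(∫ z, q0 (F.a₁ z) (F.a₂ z) (F.a₃ z) f h z) - ∫ z, q0 (F.a₁ z₁) (F.a₂ z₁) (F.a₃ z₁) f h z| ≤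
      t * dir f + 2 * F.C / t * er F z₁ h := by
  have hi : Integrable fun z => ‖co F z - co F z₁‖ * nr h z :=
    hh.nr.int.bdd_mul ((measurable_co F).sub_const _).norm.aestronglyMeasurable
      (Eventually.of_forall fun z => by rw [norm_norm]; exact norm_co_sub_le F z z₁)
  rw [← integral_sub (int_q F hf hh) (hf.q0 hh _ _ _).int, dir_eq, er, ← integral_const_mul,
    ← integral_const_mul, ← integral_add (hf.nr.int.const_mul t) (hi.const_mul _),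
    ← Real.norm_eq_abs]
  refine norm_integral_le_of_norm_le ((hf.nr.int.const_mul t).add (hi.const_mul _))
    (Eventually.of_forall fun z => ?_)
  obtain ⟨h1, h2, h3⟩ := co_sub F z z₁
  refine (q0_sub_le _ _ _ _ _ _ _ f h z h1 h2 h3 ht).trans (add_le_add_right ?_ _)
  rw [div_mul_eq_mul_div]
  refine div_le_div_of_nonneg_right ?_ ht.le
  have := mul_le_mul_of_nonneg_right (norm_co_sub_le F z z₁)
    (mul_nonneg (norm_nonneg (co F z - co F z₁)) (nr_nonneg h z))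
  nlinarith

theorem B_le (F : Form G φ V) {f : ℂ → ℝ} (hf : Tst (ball F.z₀ F.r₀) f) :
    F.B (ext φ V f) (ext φ V f) ≤ 2 * F.C * dir f := by
  rw [rep' F hf hf, dir_eq, ← integral_const_mul]
  refine integral_mono (int_q F (Tst.sm hf) (Tst.sm hf)) ((Tst.sm hf).nr.int.const_mul _)
    fun z => ?_
  obtain ⟨h1, h2, h3⟩ := F.bound z
  have h := q0_sub_le (F.a₁ z) (F.a₂ z) (F.a₃ z) 0 0 0 F.C f f z (by rwa [sub_zero])
    (by rwa [sub_zero]) (by rwa [sub_zero]) F.C_pos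
  have e1 : q0 0 0 0 f f z = 0 := by simp [q0]
  have e2 : F.C ^ 2 * nr f z / F.C = F.C * nr f z := by
    have := F.C_pos
    field_simp
  rw [e1, sub_zero, e2] at h
  have := (abs_le.1 h).2
  simp only
  linarith

/-- Lebesgue point of the coefficients -/
def Leb (F : Form G φ V) (z₁ : ℂ) : Prop := z₁ ∈ ball F.z₀ F.r₀ ∧
  ∀ h, Sm h → Tendsto (fun l : ℝ => er F z₁ (rs z₁ l h)) (𝓝[>] 0) (𝓝 0)

theorem exists_Leb (F : Form G φ V) : ∃ z₁, Leb F z₁ := by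
  obtain ⟨z₁, h1, h2⟩ := exists_leb (measurable_co F) (norm_co_le F) F.z₀ F.r₀_pos
  refine ⟨z₁, h1, fun h hh => ?_⟩
  simp only [er, nr_rs hh.1]
  exact h2 _ hh.nr

variable [Nonempty Z]

theorem p1 (hφ : QC φ V) (F : Form G φ V) {w : Z → ℝ} (hw : Adm F w) {M : ℝ} (hM : F.B w w ≤ M)
    {χ : ℂ → ℝ} (hχ : Tst (ball F.z₀ F.r₀) χ) {z₁ u v : ℂ}
    (hr : Rel u v (F.a₁ z₁) (F.a₂ z₁) (F.a₃ z₁)) {t : ℝ} (ht : 0 < t) :
    |F.B w (ext φ V χ) + ∫ z, w (iv φ V z) * L2 u v χ z| ≤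
      t * (F.C * (M + 1)) + 2 * F.C / t * er F z₁ χ := by
  obtain ⟨fj, hfj, hu, hdir, hB⟩ := F.approx _ hw.1 hw.2.1 hw.2.2
  have h1 := ((hB _ (F.tst_D χ hχ)).add (tendsto_int hφ F.sub hfj hw.2.1 hu hχ u v)).abs
  refine le_of_tendsto' h1 fun j => ?_
  have h2 := cmp F (Tst.sm (hfj j)) (Tst.sm hχ) z₁ ht
  rw [ibp_L2 (Tst.sm (hfj j)) (Tst.sm hχ) hr, sub_neg_eq_add, ← rep' F (hfj j) hχ] at h2
  refine h2.trans (add_le_add_left (mul_le_mul_of_nonneg_left ((hdir j).trans ?_) ht.le) _)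
  refine mul_le_mul_of_nonneg_left (add_le_add hM ?_) F.C_pos.le
  rw [div_le_one (by positivity)]
  linarith [Nat.cast_nonneg (α := ℝ) j]

theorem ell0 (hφ : QC φ V) (F : Form G φ V) {z₁ : ℂ} (hz : Leb F z₁) (f : ℂ → ℝ) (hf : Sm f) :
    dir f ≤ F.C * ∫ z, q0 (F.a₁ z₁) (F.a₂ z₁) (F.a₃ z₁) f f z := by
  set Q := ∫ z, q0 (F.a₁ z₁) (F.a₂ z₁) (F.a₃ z₁) f f z with hQ
  have key : ∀ t : ℝ, 0 < t → dir f ≤ F.C * (Q + (t * dir f + 2 * F.C / t * 0)) := by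
    intro t ht
    refine ge_of_tendsto ((((hz.2 f hf).const_mul (2 * F.C / t)).const_add (t * dir f)).const_add
      Q |>.const_mul F.C) ?_
    filter_upwards [ev_tst hf hz.1, self_mem_nhdsWithin] with l hl hl0
    have h1 := ellip hφ F hl
    have h2 := cmp F (Tst.sm hl) (Tst.sm hl) z₁ ht
    simp_rw [q0_rs hf.1 z₁ l (F.a₁ z₁)] at h2
    rw [int_rs z₁ hl0, ← rep' F hl hl, dir_rs hf.1 z₁ hl0, ← hQ] at h2
    rw [dir_rs hf.1 z₁ hl0] at h1
    refine h1.trans (mul_le_mul_of_nonneg_left ?_ F.C_pos.le)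
    linarith [(abs_le.1 h2).2]
  have h : Tendsto (fun t : ℝ => F.C * (Q + t * dir f)) (𝓝[>] 0) (𝓝 (F.C * (Q + 0 * dir f))) :=
    (Continuous.tendsto (by fun_prop) 0).mono_left nhdsWithin_le_nhds
  rw [zero_mul, add_zero] at h
  refine ge_of_tendsto h (eventually_mem_nhdsWithin.mono fun t ht => ?_)
  simpa using key t ht

theorem p1' (hφ : QC φ V) (F : Form G φ V) {z₁ u v : ℂ} (hz : Leb F z₁)
    (hr : Rel u v (F.a₁ z₁) (F.a₂ z₁) (F.a₃ z₁)) {χ : ℂ → ℝ} (hχ : Sm χ) {M ε : ℝ} (hM : 0 ≤ M)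
    (hε : 0 < ε) : ∀ᶠ l : ℝ in 𝓝[>] 0, ∀ w, Adm F w → F.B w w ≤ M →
      |F.B w (ext φ V (rs z₁ l χ)) + ∫ ζ, w (iv φ V (z₁ + l * ζ)) * L2 u v χ ζ| ≤ ε := by
  have hC := F.C_pos
  set t := ε / (2 * (F.C * (M + 1))) with ht
  have ht0 : 0 < t := by positivity
  have h1 := (hz.2 χ hχ).const_mul (2 * F.C / t)
  rw [mul_zero] at h1
  filter_upwards [ev_tst hχ hz.1, self_mem_nhdsWithin,
    h1.eventually (gt_mem_nhds (half_pos hε))] with l hl hl0 hl2 w hw hB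
  have hl0 : 0 < l := hl0
  have h2 := p1 hφ F hw hB hl hr ht0
  have h3 : ∫ z, w (iv φ V z) * L2 u v (rs z₁ l χ) z =
      ∫ ζ, w (iv φ V (z₁ + l * ζ)) * L2 u v χ ζ := by
    rw [← int_rs z₁ hl0 (fun ζ => w (iv φ V (z₁ + l * ζ)) * L2 u v χ ζ)]
    refine integral_congr_ae (Eventually.of_forall fun z => ?_)
    simp only [L2_rs hχ.1, rs_inv z₁ hl0]; ring
  have h4 : t * (F.C * (M + 1)) = ε / 2 := by rw [ht]; field_simp
  rw [h3, h4] at h2
  linarith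

end Crest.Agent.R193.PB
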