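import Crest.Agent.R193.Q.Main
import Crest.Agent.R193.P.Conj

/-!
# R193/P/Main: zooming in at a Lebesgue point.  Blueprint: notes193/R193.md.  The statements below are FROZEN; the block owner fills them.
-/

set_option autoImplicit false
open Set Metric Filter Topology MeasureTheory

namespace Crest.Agent.R193

variable {G : Type} [Group G] {Z : Type} [MetricSpace Z] [CompactSpace Z] [MulAction G Z]

open PB in
theorem exists_weakHarm (H : HA G Z) {φ : Z → ℂ} {V : Set Z} (hφ : QC φ V) (F : Form G φ V) :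
    ∃ Φ : Z ≃ₜ OnePoint ℂ, ∀ g : G, WeakHarm (fun p => Φ (g • Φ.symm p)) := by
  obtain ⟨z₁, hz⟩ := exists_Leb F
  obtain ⟨x₁, hx₁, rfl⟩ := F.sub hz.1
  have : Nonempty Z := ⟨x₁⟩
  have := H.ccs
  obtain ⟨u, v, T, hu, hv, hr⟩ := posdef F.C_pos (ell0 hφ F hz)
  obtain ⟨g, lam, Φ, h1, h2, h3, h4⟩ := zoom H hφ hx₁
  have hZ : Zm φ V (φ x₁) g lam Φ := ⟨h1, h2, h3, h4⟩
  obtain ⟨c, hc, hint⟩ := int_lin T
  refine ⟨Φ.trans T.toHomeomorph.onePointCongr, fun h χ hχ => ?_⟩
  set f : OnePoint ℂ → OnePoint ℂ := fun p => (Φ.trans T.toHomeomorph.onePointCongr)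
    (h • (Φ.trans T.toHomeomorph.onePointCongr).symm p) with hf
  have hfT : ∀ ζ : ℂ, f (T ζ : ℂ) = OnePoint.map T (Φ (h • Φ.symm ζ)) := by
    intro ζ
    have : (Φ.trans T.toHomeomorph.onePointCongr).symm (T ζ : ℂ) = Φ.symm ζ := by
      rw [Homeomorph.symm_apply_eq]
      simp
    simp only [hf, this]
    rfl
  have hcx : ∀ p : OnePoint ℂ, cx (OnePoint.map T p) = T (cx p) := by
    intro p
    induction p using OnePoint.rec with
    | infty => simp
    | coe z => simp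
  have hχT : Tst (Om Φ h) (fun z => χ (T z)) := by
    refine ⟨((Tst.sm hχ).lin T).1, ((Tst.sm hχ).lin T).2, fun ζ hζ hinf => ?_⟩
    have := hχ.2.2 (tsupport_comp_subset T.continuous hζ)
    exact this (by rw [hfT, hinf]; rfl)
  have key : ∀ (P : ℂ → ℂ) (ℓ : ℂ →L[ℝ] ℝ), Differentiable ℂ P →
      ∫ z : ℂ, ℓ (P (cx (f z))) * Laplacian.laplacian χ z = 0 := by
    intro P ℓ hP
    obtain ⟨hP1, hP2⟩ := harm_of_holo hP ℓ
    have h5 := hZ.harm hφ F hz hr h hχT (P := fun z => ℓ (P (T z))) (hP1.comp T.contDiff)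
      fun z => by rw [L2_lin hP1, hu, hv, hP2]
    have h6 := hint fun z : ℂ => ℓ (P (cx (f z))) * Laplacian.laplacian χ z
    simp only [hfT, hcx] at h6
    simp only [L2_lin hχ.1, hu, hv, L2_one hχ.1, cj] at h5
    rw [h5] at h6
    exact (mul_eq_zero.1 h6.symm).resolve_left hc.ne'
  exact ⟨key id Complex.reCLM differentiable_id, key id Complex.imCLM differentiable_id,
    key (fun z => z ^ 2) Complex.reCLM (by fun_prop), key (fun z => z ^ 2) Complex.imCLM (by fun_prop)⟩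

end Crest.Agent.R193
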